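import Vale.Agent.P030.H440.Build

/-!
# P030, route N: helper440's `chunk_sound` for pieces which cross the real axis

The piece may reach below the real axis; the conclusion is only claimed at points with
`0 ≤ (p.z t).im`.
-/

namespace Vale.Agent.P030.H69

open Vale.Agent.P030.H532
open Vale.Agent.P030.H462
open Vale.Agent.P030.H440 Vale.Agent.P030.H440.Bd

/-- the constants of the piece are right -/
def pcOkI (N : ℕ) (p : Piece) (s : ℕ) (pc : PC) : Bool :=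
  decide (0 < N) && decide (0 < s) &&
  decide ((pc.c0 : ℤ) = s ^ 2 * N ^ 2 * (p.ax * p.ax + p.ay * p.ay)) &&
  decide ((pc.c1p : ℤ) - pc.c1n = 2 * s ^ 2 * N * (p.ax * p.bx + p.ay * p.By)) &&
  decide ((pc.c2p : ℤ) - pc.c2n = 2 * s ^ 2 * N * (p.ay * p.bx - p.ax * p.By)) &&
  decide ((pc.c3 : ℤ) = s ^ 2 * (p.bx * p.bx + p.By * p.By)) &&
  decide ((pc.b0p : ℤ) - pc.b0n = 2 * s ^ 2 * N ^ 2 * (p.ax * p.ax' + p.ay * p.ay')) &&
  decide ((pc.b1p : ℤ) - pc.b1n = 2 * s ^ 2 * N *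
    (p.ax * p.bx' + p.ay * p.by' + (p.ax' * p.bx + p.ay' * p.By))) &&
  decide ((pc.b2p : ℤ) - pc.b2n = 2 * s ^ 2 * N *
    (p.ay * p.bx' - p.ax * p.by' + (p.ay' * p.bx - p.ax' * p.By))) &&
  decide ((pc.b3p : ℤ) - pc.b3n = 2 * s ^ 2 * (p.bx * p.bx' + p.By * p.by')) &&
  decide (pc.b3p = 0 ∨ pc.b3n = 0) &&
  decide ((pc.a0 : ℤ) = s ^ 2 * N ^ 2 * (p.ax' * p.ax' + p.ay' * p.ay')) &&
  decide ((pc.a1p : ℤ) - pc.a1n = 2 * s ^ 2 * N * (p.ax' * p.bx' + p.ay' * p.by')) &&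
  decide ((pc.a2p : ℤ) - pc.a2n = 2 * s ^ 2 * N * (p.ay' * p.bx' - p.ax' * p.by')) &&
  decide ((pc.a3 : ℤ) = s ^ 2 * (p.bx' * p.bx' + p.by' * p.by')) &&
  (decide (pc.rl = 0) || p.isReal)

theorem pcOkI_spec {N : ℕ} {p : Piece} {s : ℕ} {pc : PC}
    (h : pcOkI N p s pc = true) : PCok N p s pc := by
  simp only [pcOkI, Bool.and_eq_true, Bool.or_eq_true, decide_eq_true_eq] at h
  obtain ⟨⟨⟨⟨⟨⟨⟨⟨⟨⟨⟨⟨⟨⟨⟨h1, h2⟩, h3⟩, h4⟩, h5⟩, h6⟩, h7⟩, h8⟩, h9⟩, h10⟩, h11⟩, h12⟩, h13⟩, h14⟩,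
    h15⟩, h16⟩ := h
  exact ⟨h1, h2, h3, h4, h5, h6, h7, h8, h9, h10, h11, h12, h13, h14, h15, h16⟩

/-- `Im (num conj den) = Im z |den|²` -/
theorem imq_nonneg {p : Piece} {t : ℝ} (hd : p.den t ≠ 0) (him : 0 ≤ (p.z t).im) :
    0 ≤ (imq p).ev t := by
  have e1 : (imq p).ev t = (p.num t * (starRingEnd ℂ) (p.den t)).im := by
    simp only [imq, Quad.ev, Piece.num, Piece.den, Complex.mul_im, Complex.mul_re,
      Complex.add_re, Complex.add_im, Complex.ofReal_re, Complex.ofReal_im, Complex.intCast_re,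
      Complex.intCast_im, Complex.I_re, Complex.I_im, Complex.conj_re, Complex.conj_im]
    push_cast
    ring
  have e2 : p.num t * (starRingEnd ℂ) (p.den t) = ((Complex.normSq (p.den t) : ℝ) : ℂ) * p.z t := by
    rw [Piece.z, Complex.normSq_eq_conj_mul_self]
    field_simp
  rw [e1, e2, Complex.im_ofReal_mul]
  exact mul_nonneg (Complex.normSq_nonneg _) him

/-- **soundness of a chunk, at the points of the closed upper half plane** -/
theorem chunk_soundI (hlg : LgSpec) {D : KTab} (hD : D.ok = true) {p : Piece} {s : ℕ} {pc : PC}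
    {t0 t1 : ℕ} (hp : pcOkI D.N p s pc = true) {cs : List ℕ} (hcs : csOk cs D.G = true)
    {prs : List (ℕ × ℕ)} (hprs : ∀ x ∈ prs, x.1 < 8 ∧ x.2 < 8) {cmps : List Cmp}
    (hc : cmps = prs.map (D.mkC cs)) {cls : List Cell} (hne : cls ≠ [])
    (h : chunk pc D.ents cmps cls t0 t1 = true) {t : ℝ} (h0 : (t0 : ℝ) ≤ t) (h1 : t ≤ t1)
    (h2 : t ≤ t0 + len cls) (hd : p.den t ≠ 0) (him : 0 ≤ (p.z t).im) :
    ∀ x ∈ prs, D.toTab.W x.1 (p.z t) ≤ D.toTab.W x.2 (p.z t) := by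
  have hpc := pcOkI_spec hp
  simp only [KTab.ok, Bool.and_eq_true, List.all_eq_true] at hD
  obtain ⟨⟨hD1, hD2⟩, hD3⟩ := hD
  obtain ⟨hL, hlen⟩ := of_decide_eq_true hD1
  have hT : ∀ b < 8, D.T b = D.T 0 := fun b hb => of_decide_eq_true (hD3 b (List.mem_range.2 hb))
  have hk : bld pc.c0 pc.c1p pc.c1n pc.c2p pc.c2n pc.c3 pc.b0p pc.b0n pc.b1p pc.b1n pc.b2p
      pc.b2n pc.b3p pc.b3n pc.a0 pc.a1p pc.a1n pc.a2p pc.a2n pc.a3 pc.rl t0 t1
      (fun atoms => cells atoms cmps cls t0) D.ents [] = true := by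
    cases pc
    exact h
  obtain ⟨la, h3, h4⟩ := bld_spec hpc D.ents hD2 [] hk
  rw [List.append_nil] at h3
  have htot : ∀ b < 16, tot la b = (D.ents.map fun e => e.mult * fld e.v b).sum := fun b hb =>
    h4.fl b hb
  have hsumD : sumD la = D.SD := h4.dd
  have hst : static la prs = true := by
    rw [static, Bool.and_eq_true, Bool.and_eq_true, decide_eq_true_eq, List.all_eq_true,
      List.all_eq_true]
    refine ⟨⟨?_, fun a ha => ?_⟩, fun x hx => ?_⟩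
    · have := h4.len
      omega
    · obtain ⟨f1, f2⟩ := h4.fine a ha
      obtain ⟨v1, v2, v3⟩ := h4.V a ha
      rw [okAtom, Bool.and_eq_true, decide_eq_true_eq, List.all_eq_true]
      refine ⟨⟨f1, f2, v1, v2⟩, fun x hx => ?_⟩
      obtain ⟨i1, i2⟩ := hprs x hx
      have w1 := v3 x.1 (by omega)
      have w2 := v3 x.2 (by omega)
      exact decide_eq_true ⟨by omega, by omega⟩
    · obtain ⟨i1, i2⟩ := hprs x hx
      refine decide_eq_true ⟨by omega, by omega, ?_⟩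
      rw [htot x.1 (by omega), htot x.2 (by omega)]
      have e1 := hT x.1 i1
      have e2 := hT x.2 i2
      rw [KTab.T] at e1 e2
      rw [e1, e2]
  have hcm : cmps = prs.map (mkCmp la cs) := by
    rw [hc]
    refine List.map_congr_left fun x _ => ?_
    rw [KTab.mkC, mkCmp, hsumD]
  rw [hcm] at h3
  have hpot := cells_sound hlg hne hst h3 h0 h2
  have himt := imq_nonneg hd him
  intro x hx
  obtain ⟨i1, i2⟩ := hprs x hx
  have hx1 := hpot x hx
  rw [pot, pot, h4.ev t h0 h1 hd himt x.1 (by omega), h4.ev t h0 h1 hd himt x.2 (by omega)] at hx1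
  have hcs' : ∀ b < 8, ((cs.getD b 0 : ℕ) : ℝ) / 4294967296 = 2 * ((D.G.getD b 0 : ℤ) : ℝ)
      + ((cs.getD 0 0 : ℝ) / 2 ^ 32 - 2 * ((D.G.getD 0 0 : ℤ) : ℝ)) := by
    intro b hb
    have := csOk_spec hcs hb
    have h32 : (2 : ℝ) ^ 32 = 4294967296 := by norm_num
    rw [← h32]
    exact this
  rw [hcs' _ i1, hcs' _ i2] at hx1
  have hsplit : ∀ b : ℕ, (D.ents.map fun e => ((fld e.v b : ℕ) : ℝ) * (2 * (e.toEnt D.N).U (p.z t)
        + e.mult * (2 * Real.log (s * ‖p.den t‖)))).sum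
      = 2 * (D.ents.map fun e => ((fld e.v b : ℕ) : ℝ) * (e.toEnt D.N).U (p.z t)).sum
        + ((D.T b : ℕ) : ℝ) * (2 * Real.log (s * ‖p.den t‖)) := by
    intro b
    have key : ∀ l : List KEnt, (l.map fun e => ((fld e.v b : ℕ) : ℝ) * (2 * (e.toEnt D.N).U (p.z t)
        + e.mult * (2 * Real.log (s * ‖p.den t‖)))).sum
      = 2 * (l.map fun e => ((fld e.v b : ℕ) : ℝ) * (e.toEnt D.N).U (p.z t)).sum
        + (((l.map fun e => e.mult * fld e.v b).sum : ℕ) : ℝ)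
          * (2 * Real.log (s * ‖p.den t‖)) := by
      intro l
      induction l with
      | nil => simp
      | cons e l ih =>
        simp only [List.map_cons, List.sum_cons]
        rw [ih]
        push_cast
        ring
    exact key D.ents
  rw [hsplit, hsplit, hT _ i1, hT _ i2] at hx1
  have hL' : (0 : ℝ) < D.L := by exact_mod_cast hL
  rw [W_eq D i1, W_eq D i2]
  refine div_le_div_of_nonneg_right ?_ hL'.le
  linarith

end Vale.Agent.P030.H69
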