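import Vale.Agent.P030.H69.V1Geo
import Vale.Agent.P030.H250.Geo4
import Vale.Agent.P030.AR.NGen

/-!
# P030, route N: the geometry of the frozen table v1 as `GeoN` and `AR.Geo` (helper69)

Everything which `GeoN.n1`, `GeoN.n2`, `GeoN.n3` ask for, except for the comparisons on the pieces.
-/

open Vale.Agent.P030.H580 (WTree)
open Vale.Agent.P030.H532 Vale.Agent.P030.H250

namespace Vale.Agent.P030.H69.V1

/-- patterns at the cusp circles -/
def pC' (c : Fin 4) (b b' : Fin 8) : Bool := b == b' || (lC.getD c.val []).contains (b.val, b'.val)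

/-- the geometry -/
def GN : GeoN 10 7 8 :=
  ⟨TU, wi, rn, rd, fun j => (chW j).pps, chA.pps, fun c => (chC c).pps, pI, fun k q => pR q k, kc,
    pC'⟩

theorem c1 : GN.chkI = true := by decide +kernel
theorem c2 : GN.chkA = true := by decide +kernel
theorem c3 : GN.chkC = true := by decide +kernel

/-- the walls of helper580 -/
noncomputable def w (j : Fin 7) : H580.Wall := (wi j).toW

theorem okW' (j : Fin 7) : (wi j).okW = true := by
  have h := okW
  rw [List.all_eq_true] at h
  exact h j (List.mem_finRange j)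

theorem hw : SameSign (fun j => (w j).fn) GN.wi := sameSign_of_toW okW'

theorem cu (j : Fin 7) (z : ℂ) (hz : (GN.wi j).fn z = 0) : ∃ p ∈ GN.pu j, p.P.On z := by
  have h := chW_ok
  rw [List.all_eq_true] at h
  have h1 := h j (List.mem_finRange j)
  rw [Bool.and_eq_true, decide_eq_true_eq] at h1
  exact WChP.cover h1.1 (by rw [h1.2]; exact hz)

theorem ca (z : ℂ) (hz : imW.fn z = 0) : ∃ p ∈ GN.pa, p.P.On z := by
  have h := chA_ok
  rw [Bool.and_eq_true, decide_eq_true_eq] at h
  exact WChP.cover h.1 (by rw [h.2]; exact hz)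

theorem cc (c : Fin 4) (z : ℂ) (hz : (cwI c (GN.rn c) (GN.rd c)).fn z = 0) :
    ∃ p ∈ GN.pc c, p.P.On z := by
  have h := chC_ok
  rw [List.all_eq_true] at h
  have h1 := h c (List.mem_finRange c)
  rw [Bool.and_eq_true, decide_eq_true_eq] at h1
  exact WChP.cover h1.1 (by rw [h1.2]; exact hz)

/-- radii of the cusp circles -/
noncomputable def ρ (c : Fin 4) : ℝ := (rn c : ℝ) / rd c

theorem hρ (c : Fin 4) : ρ c = GN.rn c / GN.rd c := rfl

theorem hd (c : Fin 4) : 0 < GN.rd c := by
  fin_cases c <;> decide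

theorem ρ_pos (c : Fin 4) : 0 < ρ c := by
  have h : 0 < rn c := by fin_cases c <;> decide
  have h1 : 0 < rd c := hd c
  have h' : (0 : ℝ) < rn c := by exact_mod_cast h
  have h1' : (0 : ℝ) < rd c := by exact_mod_cast h1
  exact div_pos h' h1'

theorem ρ0 : ρ 0 = 1 / 128 := by simp [ρ, rn, rd]
theorem ρ1 : ρ 1 = 1 / 512 := by simp [ρ, rn, rd]
theorem ρ2 : ρ 2 = 1 / 2048 := by simp [ρ, rn, rd]
theorem ρ3 : ρ 3 = 1024 := by simp [ρ, rn, rd]

/-- tree, walls, radii in helper991's form -/
noncomputable def geo : AR.Geo 10 7 where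
  TU := TU
  w := w
  ρ := ρ
  ρ_pos := ρ_pos
  s01 := by rw [ρ0, ρ1]; norm_num
  s12 := by rw [ρ1, ρ2]; norm_num
  s3 := by rw [ρ3]; norm_num

end Vale.Agent.P030.H69.V1
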