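import Vale.Agent.P030.H69.Walls

/-!
# P030, route N, (D3), flexible form: every piece of a wall has its own parameter map

A piece of the wall with base chart `p` is `t ↦ p.z ((al t + be)/(ga t + de))`, `t ∈ [t0, t1]`,
integers, `ga t + de > 0` at both ends (any orientation).  `CC.ok`: the parameter intervals of the
first list cover `[-1, 1]` in the base chart, those of the second list in the inverse chart.
`CC.cover`: every point of the wall is on one of the pieces.  `mir`: mirror image of a piece.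
-/

namespace Vale.Agent.P030.H69

open Vale.Agent.P030.H532

/-- a parameter map on an interval -/
structure Pm where
  al : ℤ
  be : ℤ
  ga : ℤ
  de : ℤ
  t0 : ℤ
  t1 : ℤ
deriving DecidableEq

/-- the piece in the new parameter -/
def comp (p : Piece) (m : Pm) : Piece :=
  ⟨p.ax * m.de + p.ax' * m.be, p.ay * m.de + p.ay' * m.be,
    p.ax * m.ga + p.ax' * m.al, p.ay * m.ga + p.ay' * m.al,
    p.bx * m.de + p.bx' * m.be, p.By * m.de + p.by' * m.be,
    p.bx * m.ga + p.bx' * m.al, p.By * m.ga + p.by' * m.al⟩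

theorem comp_num (p : Piece) (m : Pm) {t u : ℝ} (h : u * (m.ga * t + m.de) = m.al * t + m.be) :
    (comp p m).num t = ((m.ga * t + m.de : ℝ) : ℂ) * p.num u := by
  have h' : (u : ℂ) * (m.ga * t + m.de) = m.al * t + m.be := by exact_mod_cast congrArg (fun x : ℝ => (x : ℂ)) h
  simp only [comp, Piece.num]
  push_cast
  linear_combination (-((p.ax' : ℂ) + p.ay' * Complex.I)) * h'

theorem comp_den (p : Piece) (m : Pm) {t u : ℝ} (h : u * (m.ga * t + m.de) = m.al * t + m.be) :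
    (comp p m).den t = ((m.ga * t + m.de : ℝ) : ℂ) * p.den u := by
  have h' : (u : ℂ) * (m.ga * t + m.de) = m.al * t + m.be := by exact_mod_cast congrArg (fun x : ℝ => (x : ℂ)) h
  simp only [comp, Piece.den]
  push_cast
  linear_combination (-((p.bx' : ℂ) + p.by' * Complex.I)) * h'

/-- lower and upper end of the parameter interval, as fractions -/
def Pm.lh (m : Pm) : (ℤ × ℤ) × (ℤ × ℤ) :=
  if (m.al * m.t0 + m.be) * (m.ga * m.t1 + m.de) ≤ (m.al * m.t1 + m.be) * (m.ga * m.t0 + m.de) then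
    ((m.al * m.t0 + m.be, m.ga * m.t0 + m.de), (m.al * m.t1 + m.be, m.ga * m.t1 + m.de))
  else ((m.al * m.t1 + m.be, m.ga * m.t1 + m.de), (m.al * m.t0 + m.be, m.ga * m.t0 + m.de))

/-- positivity at the ends -/
def Pm.pos (m : Pm) : Bool :=
  decide (m.t0 ≤ m.t1) && decide (0 < m.ga * m.t0 + m.de) && decide (0 < m.ga * m.t1 + m.de)

/-- the intervals cover everything from the fraction `c` to `1` -/
def chainF : ℤ × ℤ → List Pm → Bool
  | c, [] => decide (c.2 ≤ c.1)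
  | c, m :: l => m.pos && decide (m.lh.1.1 * c.2 ≤ c.1 * m.lh.1.2) && chainF m.lh.2 l

/-- an affine function with a sign change -/
theorem affine_zero {A B x0 x1 : ℝ} (hx : x0 ≤ x1)
    (h : (A * x0 + B ≤ 0 ∧ 0 ≤ A * x1 + B) ∨ (0 ≤ A * x0 + B ∧ A * x1 + B ≤ 0)) :
    ∃ x, x0 ≤ x ∧ x ≤ x1 ∧ A * x + B = 0 := by
  by_cases hA : A = 0
  · subst hA
    refine ⟨x0, le_rfl, hx, ?_⟩
    rcases h with ⟨h1, h2⟩ | ⟨h1, h2⟩ <;> linarith
  · refine ⟨-B / A, ?_, ?_, by field_simp; ring⟩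
    · rcases lt_or_gt_of_ne hA with hA | hA
      · rw [le_div_iff_of_neg hA]
        rcases h with ⟨h1, h2⟩ | ⟨h1, h2⟩ <;> nlinarith
      · rw [le_div_iff₀ hA]
        rcases h with ⟨h1, h2⟩ | ⟨h1, h2⟩ <;> nlinarith
    · rcases lt_or_gt_of_ne hA with hA | hA
      · rw [div_le_iff_of_neg hA]
        rcases h with ⟨h1, h2⟩ | ⟨h1, h2⟩ <;> nlinarith
      · rw [div_le_iff₀ hA]
        rcases h with ⟨h1, h2⟩ | ⟨h1, h2⟩ <;> nlinarith

theorem Pm.hit {m : Pm} (hp : m.pos = true) {u : ℝ} (h0 : (m.lh.1.1 : ℝ) ≤ u * m.lh.1.2)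
    (h1 : u * m.lh.2.2 ≤ m.lh.2.1) :
    ∃ t : ℝ, (m.t0 : ℝ) ≤ t ∧ t ≤ m.t1 ∧ u * (m.ga * t + m.de) = m.al * t + m.be ∧
      0 < m.ga * t + m.de := by
  simp only [Pm.pos, Bool.and_eq_true, decide_eq_true_eq] at hp
  obtain ⟨⟨ha, hb⟩, hc⟩ := hp
  have ha' : (m.t0 : ℝ) ≤ m.t1 := by exact_mod_cast ha
  have hb' : (0 : ℝ) < m.ga * m.t0 + m.de := by exact_mod_cast hb
  have hc' : (0 : ℝ) < m.ga * m.t1 + m.de := by exact_mod_cast hc
  have key : ∃ x, (m.t0 : ℝ) ≤ x ∧ x ≤ m.t1 ∧ (m.al - u * m.ga) * x + (m.be - u * m.de) = 0 := by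
    apply affine_zero ha'
    unfold Pm.lh at h0 h1
    split_ifs at h0 h1 with hc
    · left
      push_cast at h0 h1
      constructor <;> linarith
    · right
      push_cast at h0 h1
      constructor <;> linarith
  obtain ⟨t, e1, e2, e3⟩ := key
  refine ⟨t, e1, e2, by linear_combination -e3, ?_⟩
  rcases eq_or_lt_of_le (e1.trans e2) with h | h
  · have : t = m.t0 := le_antisymm (h ▸ e2) e1
    rw [this]; exact hb'
  · have k : ((m.ga : ℝ) * t + m.de) * (m.t1 - m.t0) =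
        (m.t1 - t) * (m.ga * m.t0 + m.de) + (t - m.t0) * (m.ga * m.t1 + m.de) := by ring
    have k2 : 0 < ((m.ga : ℝ) * t + m.de) * (m.t1 - m.t0) := by
      rw [k]
      rcases eq_or_lt_of_le e1 with h3 | h3
      · rw [← h3]
        have : 0 < ((m.t1 : ℝ) - m.t0) * (m.ga * m.t0 + m.de) := mul_pos (by linarith) hb'
        linarith
      · have h4 : 0 < (t - (m.t0 : ℝ)) * (m.ga * m.t1 + m.de) := mul_pos (by linarith) hc'
        have h5 : 0 ≤ ((m.t1 : ℝ) - t) * (m.ga * m.t0 + m.de) :=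
          mul_nonneg (by linarith) hb'.le
        linarith
    exact pos_of_mul_pos_left k2 (by linarith)

theorem Pm.lh_pos {m : Pm} (hp : m.pos = true) : 0 < m.lh.1.2 ∧ 0 < m.lh.2.2 := by
  simp only [Pm.pos, Bool.and_eq_true, decide_eq_true_eq] at hp
  unfold Pm.lh
  split_ifs
  · exact ⟨hp.1.2, hp.2⟩
  · exact ⟨hp.2, hp.1.2⟩

theorem chainF_cover (l : List Pm) (c : ℤ × ℤ) (hc : 0 < c.2) (h : chainF c l = true) {u : ℝ}
    (h0 : (c.1 : ℝ) ≤ u * c.2) (h1 : u < 1) : ∃ m ∈ l, ∃ t : ℝ, (m.t0 : ℝ) ≤ t ∧ t ≤ m.t1 ∧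
      u * (m.ga * t + m.de) = m.al * t + m.be ∧ 0 < m.ga * t + m.de := by
  induction l generalizing c with
  | nil =>
    exfalso
    have h2 : (c.2 : ℝ) ≤ c.1 := by exact_mod_cast of_decide_eq_true h
    have h3 : (0 : ℝ) < c.2 := by exact_mod_cast hc
    nlinarith
  | cons m l ih =>
    simp only [chainF, Bool.and_eq_true, decide_eq_true_eq] at h
    obtain ⟨⟨hp, h2⟩, h3⟩ := h
    have h2' : (m.lh.1.1 : ℝ) * c.2 ≤ c.1 * m.lh.1.2 := by exact_mod_cast h2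
    obtain ⟨p1, p2⟩ := Pm.lh_pos hp
    have p1' : (0 : ℝ) < m.lh.1.2 := by exact_mod_cast p1
    have hc' : (0 : ℝ) < c.2 := by exact_mod_cast hc
    have hlo : (m.lh.1.1 : ℝ) ≤ u * m.lh.1.2 := by
      have h4 : (m.lh.1.1 : ℝ) * c.2 ≤ (u * m.lh.1.2) * c.2 := by
        calc (m.lh.1.1 : ℝ) * c.2 ≤ c.1 * m.lh.1.2 := h2'
          _ ≤ (u * c.2) * m.lh.1.2 := mul_le_mul_of_nonneg_right h0 p1'.le
          _ = (u * m.lh.1.2) * c.2 := by ring
      exact le_of_mul_le_mul_right h4 hc'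
    rcases le_total (u * m.lh.2.2) (m.lh.2.1 : ℝ) with h5 | h5
    · obtain ⟨t, ht⟩ := Pm.hit hp hlo h5
      exact ⟨m, List.mem_cons_self, t, ht⟩
    · obtain ⟨m', h6, h7⟩ := ih m.lh.2 p2 h3 h5
      exact ⟨m', List.mem_cons_of_mem _ h6, h7⟩

/-- the cover of one wall -/
structure CC where
  p : Piece
  l0 : List Pm
  l1 : List Pm

/-- the last interval reaches `1` (the point `u = 1` itself) -/
def endsAt1 (l : List Pm) : Bool :=
  l.any fun m => m.pos && decide (m.lh.1.1 ≤ m.lh.1.2) && decide (m.lh.2.2 ≤ m.lh.2.1)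

/-- the check -/
def CC.ok (c : CC) (w : Wl) : Bool :=
  onW c.p w && chainF (-1, 1) c.l0 && endsAt1 c.l0 && chainF (-1, 1) c.l1 && endsAt1 c.l1

/-- the pieces: chart and parameter interval -/
def CC.pieces (c : CC) : List (Piece × ℤ × ℤ) :=
  c.l0.map (fun m => (comp c.p m, m.t0, m.t1)) ++ c.l1.map (fun m => (comp (inv c.p) m, m.t0, m.t1))

theorem cover_list {l : List Pm} (h : chainF (-1, 1) l = true) (h' : endsAt1 l = true) {u : ℝ}
    (h0 : -1 ≤ u) (h1 : u ≤ 1) : ∃ m ∈ l, ∃ t : ℝ, (m.t0 : ℝ) ≤ t ∧ t ≤ m.t1 ∧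
      u * (m.ga * t + m.de) = m.al * t + m.be ∧ 0 < m.ga * t + m.de := by
  rcases lt_or_eq_of_le h1 with h1 | h1
  · exact chainF_cover l (-1, 1) (by norm_num) h (by push_cast; linarith) h1
  · simp only [endsAt1, List.any_eq_true, Bool.and_eq_true, decide_eq_true_eq] at h'
    obtain ⟨m, hm, ⟨hp, h2⟩, h3⟩ := h'
    obtain ⟨t, ht⟩ := Pm.hit hp (u := u) (by rw [h1, one_mul]; exact_mod_cast h2)
      (by rw [h1, one_mul]; exact_mod_cast h3)
    exact ⟨m, hm, t, ht⟩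

theorem comp_onPc {p : Piece} {m : Pm} {u t : ℝ} (hd : p.den u ≠ 0) (h0 : (m.t0 : ℝ) ≤ t)
    (h1 : t ≤ m.t1) (h2 : u * (m.ga * t + m.de) = m.al * t + m.be) (h3 : 0 < m.ga * t + m.de) :
    OnPc (comp p m, m.t0, m.t1) (p.z u) := by
  have h4 : ((m.ga * t + m.de : ℝ) : ℂ) ≠ 0 := by exact_mod_cast h3.ne'
  refine ⟨t, h0, h1, ?_, ?_⟩
  · rw [comp_den p m h2]
    exact mul_ne_zero h4 hd
  · rw [Piece.z, Piece.z, comp_den p m h2, comp_num p m h2, mul_div_mul_left _ _ h4]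

/-- **(D3), flexible form** -/
theorem CC.cover {c : CC} {w : Wl} (h : c.ok w = true) {z : ℂ} (hz : w.fn z = 0) :
    ∃ q ∈ c.pieces, OnPc q z := by
  simp only [CC.ok, Bool.and_eq_true] at h
  obtain ⟨⟨⟨⟨h1, h2⟩, h3⟩, h4⟩, h5⟩ := h
  rcases chart_cover h1 hz with ⟨u, a, b, d, e⟩ | ⟨u, a, b, d, e⟩
  · obtain ⟨m, hm, t, k0, k1, k2, k3⟩ := cover_list h2 h3 a b
    refine ⟨_, List.mem_append_left _ (List.mem_map.2 ⟨m, hm, rfl⟩), ?_⟩
    rw [e]
    exact comp_onPc d k0 k1 k2 k3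
  · obtain ⟨m, hm, t, k0, k1, k2, k3⟩ := cover_list h4 h5 a b
    refine ⟨_, List.mem_append_right _ (List.mem_map.2 ⟨m, hm, rfl⟩), ?_⟩
    rw [e]
    exact comp_onPc d k0 k1 k2 k3

/-! ### mirror images -/

/-- the mirror image of a piece -/
def mir (p : Piece) : Piece := ⟨p.ax, -p.ay, p.ax', -p.ay', p.bx, -p.By, p.bx', -p.by'⟩

theorem mir_num (p : Piece) (t : ℝ) : (mir p).num t = (starRingEnd ℂ) (p.num t) := by
  simp [mir, Piece.num]

theorem mir_den (p : Piece) (t : ℝ) : (mir p).den t = (starRingEnd ℂ) (p.den t) := by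
  simp [mir, Piece.den]

theorem mir_z (p : Piece) (t : ℝ) : (mir p).z t = (starRingEnd ℂ) (p.z t) := by
  rw [Piece.z, Piece.z, mir_num, mir_den, map_div₀]

theorem onPc_mir {q : Piece × ℤ × ℤ} {z : ℂ} (h : OnPc (mir q.1, q.2) z) :
    OnPc q ((starRingEnd ℂ) z) := by
  obtain ⟨t, h0, h1, h2, h3⟩ := h
  refine ⟨t, h0, h1, ?_, ?_⟩
  · intro h4
    apply h2
    rw [mir_den, h4, map_zero]
  · rw [h3, mir_z, Complex.conj_conj]

/-- the mirror of a wall -/
def Wl.mir (w : Wl) : Wl := ⟨w.A, w.Bx, -w.By, w.C⟩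

theorem Wl.fn_mir (w : Wl) (z : ℂ) : w.mir.fn z = w.fn ((starRingEnd ℂ) z) := by
  simp [Wl.mir, Wl.fn]

end Vale.Agent.P030.H69
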