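import Vale.Agent.P030.H250.Geo
import Vale.Agent.P030.AR.NTop

/-!
# P030, route N: circles with rational data: helper580's walls against helper250's integer walls

`RC` : the circle of centre `(X + iY)/N` and radius `R/N`.  `RC.iw.fn = N² * RC.wall.fn`;
`can_scale`, `edges_scale`: canonical cells and edges do not change when the wall functions are
multiplied by positive constants.
-/

open Vale.Agent.P030.H580 Vale.Agent.P030.AR Set
open scoped ComplexConjugate

namespace Vale.Agent.P030.H69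

open Vale.Agent.P030.H532 (Piece)

/-- a circle with rational data -/
structure RC where
  X : ℤ
  Y : ℤ
  R : ℤ
  N : ℕ
deriving DecidableEq

namespace RC

/-- centre -/
noncomputable def c (w : RC) : ℂ := ((w.X : ℂ) + (w.Y : ℂ) * Complex.I) / (w.N : ℂ)

/-- radius -/
noncomputable def r (w : RC) : ℝ := (w.R : ℝ) / w.N

/-- helper580's wall -/
noncomputable def wall (w : RC) : H580.Wall := .circ w.c w.r

/-- helper250's wall -/
def iw (w : RC) : H250.Wall :=
  ⟨(w.N : ℤ) ^ 2, -(2 * w.N * w.X), -(2 * w.N * w.Y), w.X ^ 2 + w.Y ^ 2 - w.R ^ 2⟩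

/-- the chart `c + r (1 + i t)/(1 - i t)` : angle `2 arctan t` -/
def chart (w : RC) : Piece := ⟨w.X + w.R, w.Y, w.Y, w.R - w.X, w.N, 0, 0, -w.N⟩

theorem c_re (w : RC) : w.c.re = w.X / w.N := by
  have h : w.c = (((w.X : ℝ) / w.N : ℝ) : ℂ) + (((w.Y : ℝ) / w.N : ℝ) : ℂ) * Complex.I := by
    unfold c; push_cast; ring
  rw [h]; simp

theorem c_im (w : RC) : w.c.im = w.Y / w.N := by
  have h : w.c = (((w.X : ℝ) / w.N : ℝ) : ℂ) + (((w.Y : ℝ) / w.N : ℝ) : ℂ) * Complex.I := by
    unfold c; push_cast; ring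
  rw [h]; simp

theorem fn_eq (w : RC) (hN : 0 < w.N) (z : ℂ) : w.iw.fn z = (w.N : ℝ) ^ 2 * w.wall.fn z := by
  have h : (w.N : ℝ) ≠ 0 := by exact_mod_cast hN.ne'
  simp only [iw, wall, H250.Wall.fn, H580.Wall.fn, Complex.normSq_apply, Complex.sub_re,
    Complex.sub_im, c_re, c_im, r]
  push_cast
  field_simp
  ring

/-- the mirror image -/
def mir (w : RC) : RC := ⟨w.X, -w.Y, w.R, w.N⟩

/-- the circle test: `‖z - c‖ = r` is the zero set of the integer wall -/
theorem iw_zero {w : RC} (hN : 0 < w.N) (hR : 0 < w.R) {z : ℂ} :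
    w.iw.fn z = 0 ↔ ‖z - w.c‖ = w.r := by
  have h : (0 : ℝ) < w.N := by exact_mod_cast hN
  have hr : 0 < w.r := div_pos (by exact_mod_cast hR) h
  rw [fn_eq w hN, ← circ_zero hr]
  constructor
  · intro h0
    exact (mul_eq_zero.1 h0).resolve_left (by positivity)
  · intro h0
    rw [wall, h0, mul_zero]

theorem iw_nonneg {w : RC} (hN : 0 < w.N) (hR : 0 < w.R) {z : ℂ} :
    0 ≤ w.iw.fn z ↔ w.r ≤ ‖z - w.c‖ := by
  have h : (0 : ℝ) < w.N := by exact_mod_cast hN
  have hr : 0 < w.r := div_pos (by exact_mod_cast hR) h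
  rw [fn_eq w hN, ← circ_nonneg hr]
  exact mul_nonneg_iff_of_pos_left (by positivity)

theorem iw_nonpos {w : RC} (hN : 0 < w.N) (hR : 0 < w.R) {z : ℂ} :
    w.iw.fn z ≤ 0 ↔ ‖z - w.c‖ ≤ w.r := by
  have h : (0 : ℝ) < w.N := by exact_mod_cast hN
  have hr : 0 < w.r := div_pos (by exact_mod_cast hR) h
  rw [fn_eq w hN, ← circ_nonpos hr]
  constructor
  · intro h0
    by_contra hc
    rw [not_le] at hc
    have : 0 < (w.N : ℝ) ^ 2 * w.wall.fn z := by positivity
    linarith
  · intro h0
    exact mul_nonpos_of_nonneg_of_nonpos (by positivity) h0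

end RC

/-! ### positive multiples of the wall functions -/

section scale
variable {κ ι : Type}

theorem can_scale {g g' : κ → ℂ → ℝ} {c : κ → ℝ} (hc : ∀ j, 0 < c j)
    (h : ∀ j z, g' j z = c j * g j z) (T : WTree κ ι) (z : ℂ) : can g' T z = can g T z := by
  induction T with
  | leaf i => rfl
  | node j l r hl hr =>
    have e : 0 ≤ g' j z ↔ 0 ≤ g j z := by
      rw [h]
      exact mul_nonneg_iff_of_pos_left (hc j)
    simp only [can, hl, hr, e]

theorem edges_scale {g g' : κ → ℂ → ℝ} {c : κ → ℝ} (hc : ∀ j, 0 < c j)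
    (h : ∀ j z, g' j z = c j * g j z) {E : ι → ι → ℂ → Prop} (T : WTree κ ι) :
    ∀ D : Set ℂ, Edges g' E D T → Edges g E D T := by
  induction T with
  | leaf i => intro D _; trivial
  | node j l r hl hr =>
    intro D hE
    have e1 : D ∩ {z | g j z ≤ 0} = D ∩ {z | g' j z ≤ 0} := by
      ext z
      simp only [mem_inter_iff, mem_ofPred_eq, h]
      refine and_congr_right fun _ => ?_
      constructor
      · intro h0
        exact mul_nonpos_of_nonneg_of_nonpos (hc j).le h0
      · intro h0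
        by_contra h1
        rw [not_le] at h1
        have := mul_pos (hc j) h1
        linarith
    have e2 : D ∩ {z | 0 ≤ g j z} = D ∩ {z | 0 ≤ g' j z} := by
      ext z
      simp only [mem_inter_iff, mem_ofPred_eq, h]
      exact and_congr_right fun _ => (mul_nonneg_iff_of_pos_left (hc j)).symm
    refine ⟨fun z hz h0 => ?_, ?_, ?_⟩
    · rw [← can_scale hc h l z, ← can_scale hc h r z]
      exact hE.1 z hz (by rw [h, h0, mul_zero])
    · rw [e1]
      exact hl _ hE.2.1
    · rw [e2]
      exact hr _ hE.2.2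

end scale

/-- the walls of a table with rational circles -/
theorem edges_rc {n : ℕ} {ι : Type} {w : Fin n → RC} (hN : ∀ j, 0 < (w j).N)
    {E : ι → ι → ℂ → Prop} (T : WTree (Fin n) ι) {D : Set ℂ}
    (h : Edges (fun j => (w j).iw.fn) E D T) : Edges (fun j => (w j).wall.fn) E D T :=
  edges_scale (c := fun j => ((w j).N : ℝ) ^ 2)
    (fun j => by have : (0 : ℝ) < (w j).N := by exact_mod_cast hN j
                 positivity)
    (fun j z => (w j).fn_eq (hN j) z) T D h

theorem can_rc {n : ℕ} {ι : Type} {w : Fin n → RC} (hN : ∀ j, 0 < (w j).N)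
    (T : WTree (Fin n) ι) (z : ℂ) :
    can (fun j => (w j).wall.fn) T z = can (fun j => (w j).iw.fn) T z :=
  (can_scale (c := fun j => ((w j).N : ℝ) ^ 2)
    (fun j => by have : (0 : ℝ) < (w j).N := by exact_mod_cast hN j
                 positivity)
    (fun j z => (w j).fn_eq (hN j) z) T z).symm

end Vale.Agent.P030.H69
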