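import Vale.Agent.P030.H532.Table
import Vale.Agent.P030.H905.FlagOf

/-!
# P030, route N, (S7): the table as signed circle measures

`mu D D0 ..` : helper3's `SCirc` of block `b`; `Wt_eq : H905.Wt D0 (mu ..) (gam D) b z = D.W b z`;
`W_conj` : the weights are symmetric.
-/

open Finset

namespace Vale.Agent.P030.H69

open Vale.Agent.P030.H532 Vale.Agent.P030.H3

/-- one atom: centre `(X + Y i)/N`, radius `R/N`, charges -/
structure At where
  X : ℤ
  Y : ℤ
  R : ℕ
  q : List ℤ

/-- the atoms of an entry -/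
def atsE (e : Ent) : List At :=
  if e.Y = 0 then [⟨e.X, 0, e.R, e.q⟩] else [⟨e.X, e.Y, e.R, e.q⟩, ⟨e.X, -(e.Y : ℤ), e.R, e.q⟩]

/-- the atoms of a table -/
def ats (D : Tab) : List At := D.ents.flatMap atsE

theorem sum_ats (D : Tab) (f : At → ℝ) :
    ((ats D).map f).sum = (D.ents.map fun e => ((atsE e).map f).sum).sum := by
  rw [ats]
  induction D.ents with
  | nil => simp
  | cons e l ih =>
    rw [List.flatMap_cons, List.map_append, List.sum_append, ih, List.map_cons, List.sum_cons]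

theorem mass_eq (D : Tab) (b : ℕ) :
    ((ats D).map fun a => ((a.q.getD b 0 : ℤ) : ℝ)).sum = (D.mass b : ℝ) := by
  rw [sum_ats, Tab.mass]
  push_cast
  rw [List.map_map]
  congr 1
  refine List.map_congr_left fun e _ => ?_
  simp only [atsE, Function.comp]
  split_ifs with h
  · simp
  · simp
    ring

theorem W_eq (D : Tab) (b : ℕ) (z : ℂ) :
    D.W b z = (((ats D).map fun a => ((a.q.getD b 0 : ℤ) : ℝ) * lm D.N a.R a.X a.Y z).sum
      + (D.G.getD b 0 : ℤ)) / D.L := by
  rw [sum_ats, Tab.W]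
  congr 2
  congr 1
  refine List.map_congr_left fun e _ => ?_
  simp only [atsE, Ent.U]
  split_ifs with h
  · simp
  · simp
    ring

theorem sum_fin (l : List At) (f : At → ℝ) : ∑ k : Fin l.length, f (l.get k) = (l.map f).sum := by
  rw [← List.sum_ofFn]
  congr 1
  apply List.ext_get
  · simp
  · intro n h1 h2
    simp

theorem lm_conj (N R : ℕ) (X Y : ℤ) (z : ℂ) :
    lm N R X Y ((starRingEnd ℂ) z) = lm N R X (-Y) z := by
  have h : (starRingEnd ℂ) z - ((X : ℂ) + (Y : ℂ) * Complex.I) / N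
      = (starRingEnd ℂ) (z - ((X : ℂ) + ((-Y : ℤ) : ℂ) * Complex.I) / N) := by
    simp only [map_sub, map_div₀, map_add, map_mul, Complex.conj_I, map_intCast, map_natCast]
    push_cast
    ring
  rw [lm, lm, h, Complex.norm_conj]

/-- symmetry of the weights -/
theorem W_conj (D : Tab) (b : ℕ) (z : ℂ) : D.W b ((starRingEnd ℂ) z) = D.W b z := by
  rw [Tab.W, Tab.W]
  congr 3
  refine List.map_congr_left fun e _ => ?_
  simp only [Ent.U]
  split_ifs with h
  · rw [lm_conj, neg_zero]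
  · rw [lm_conj, lm_conj, neg_neg]
    ring

variable {m : ℕ}

/-- the hypotheses on a table -/
structure TabOk (D : Tab) (D0 : Fin m → ℕ) : Prop where
  hN : 0 < D.N
  hL : 0 < D.L
  hR : ∀ e ∈ D.ents, 0 < e.R
  hD : ∀ b, 0 < D0 b
  hm : ∀ b : Fin m, D.mass b = D0 b * D.L

theorem R_pos {D : Tab} {D0 : Fin m → ℕ} (h : TabOk D D0) {a : At} (ha : a ∈ ats D) : 0 < a.R := by
  rw [ats, List.mem_flatMap] at ha
  obtain ⟨e, he, ha⟩ := ha
  have h1 := h.hR e he
  simp only [atsE] at ha
  split_ifs at ha with h2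
  · rw [List.mem_singleton] at ha
    subst ha
    exact h1
  · simp only [List.mem_cons, List.not_mem_nil, or_false] at ha
    rcases ha with rfl | rfl <;> exact h1

/-- helper3's signed circle measure of block `b` -/
noncomputable def mu (D : Tab) (D0 : Fin m → ℕ) (h : TabOk D D0) (b : Fin m) :
    SCirc (Fin (ats D).length) where
  w := fun k => ((((ats D).get k).q.getD b 0 : ℤ) : ℝ) / (D0 b * D.L)
  c := fun k => ((((ats D).get k).X : ℂ) + (((ats D).get k).Y : ℂ) * Complex.I) / D.N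
  ρ := fun k => (((ats D).get k).R : ℝ) / D.N
  w_sum := by
    have h1 : (0 : ℝ) < D0 b := by exact_mod_cast h.hD b
    have h2 : (0 : ℝ) < D.L := by exact_mod_cast h.hL
    rw [← sum_div, sum_fin (ats D) (fun a => ((a.q.getD b 0 : ℤ) : ℝ)), mass_eq, h.hm b]
    push_cast
    exact div_self (mul_pos h1 h2).ne'
  ρ_pos := fun k => by
    have h1 : 0 < ((ats D).get k).R := R_pos h (List.get_mem _ _)
    have h2 : (0 : ℝ) < D.N := by exact_mod_cast h.hN
    exact div_pos (by exact_mod_cast h1) h2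

/-- the constants -/
noncomputable def gam (D : Tab) (b : Fin m) : ℝ := ((D.G.getD b 0 : ℤ) : ℝ) / D.L

theorem D0_U (D : Tab) (D0 : Fin m → ℕ) (h : TabOk D D0) (b : Fin m) (z : ℂ) :
    (D0 b : ℝ) * (mu D D0 h b).U z
      = ((ats D).map fun a => ((a.q.getD b 0 : ℤ) : ℝ) * lm D.N a.R a.X a.Y z).sum / D.L := by
  have h1 : (0 : ℝ) < D0 b := by exact_mod_cast h.hD b
  have h2 : (0 : ℝ) < D.L := by exact_mod_cast h.hL
  rw [← sum_fin, SCirc.U, mul_sum, sum_div]
  refine sum_congr rfl fun k _ => ?_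
  simp only [mu, lm]
  field_simp

/-- **the weights of the certificate are the weights of route N** -/
theorem Wt_eq (D : Tab) (D0 : Fin m → ℕ) (h : TabOk D D0) (b : Fin m) (z : ℂ) :
    H905.Wt D0 (fun b => mu D D0 h b) (fun b => gam D b) b z = D.W b z := by
  rw [H905.Wt, D0_U, W_eq, gam, ← add_div]

/-- decidable form of `TabOk` -/
def tabOk (D : Tab) (D0 : Fin m → ℕ) : Bool :=
  decide (0 < D.N) && decide (0 < D.L) && (D.ents.all fun e => decide (0 < e.R)) &&
    decide (∀ b : Fin m, 0 < D0 b ∧ D.mass b = D0 b * D.L)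

theorem TabOk.of {D : Tab} {D0 : Fin m → ℕ} (h : tabOk D D0 = true) : TabOk D D0 := by
  simp only [tabOk, Bool.and_eq_true] at h
  obtain ⟨⟨⟨h1, h2⟩, h3⟩, h4⟩ := h
  have h5 := of_decide_eq_true h4
  exact ⟨of_decide_eq_true h1, of_decide_eq_true h2,
    fun e he => of_decide_eq_true (List.all_eq_true.1 h3 e he), fun b => (h5 b).1, fun b => (h5 b).2⟩

end Vale.Agent.P030.H69
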