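import Vale.Agent.P030.H532.Table

/-!
# P030, route N, (S7) / (D3): a wall `A |z|² + Bx x + By y + C = 0` is covered by two charts

A chart is helper532's `Piece` `z(t) = (a + a' t)/(b + b' t)`.  `Piece.onW` (an integer check):
the Hermitian form `Im ((a - b z) conj (b' z - a'))` is a multiple of the wall and
`a b' - a' b ≠ 0`.  `chart_cover` : every point of the wall is `z(t)` with `|t| ≤ 1` in the chart or
in the inverse chart.  `WC.cover` : the same for a finite chain of integer parameter intervals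
(`0 ≤ t ≤ 2 M`).
-/

namespace Vale.Agent.P030.H69

open Vale.Agent.P030.H532

/-- a wall with integer coefficients -/
structure Wl where
  A : ℤ
  Bx : ℤ
  By : ℤ
  C : ℤ
deriving DecidableEq

/-- `A |z|² + Bx x + By y + C` -/
noncomputable def Wl.fn (w : Wl) (z : ℂ) : ℝ :=
  w.A * (z.re * z.re + z.im * z.im) + w.Bx * z.re + w.By * z.im + w.C

/-- the Hermitian form `Im ((a - b z) conj (b' z - a'))` of a chart -/
def hm (p : Piece) : Wl :=
  ⟨-(p.By * p.bx' - p.bx * p.by'),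
    (p.ay * p.bx' - p.ax * p.by') + (p.By * p.ax' - p.bx * p.ay'),
    (p.bx * p.ax' + p.By * p.ay') - (p.ax * p.bx' + p.ay * p.by'),
    -(p.ay * p.ax' - p.ax * p.ay')⟩

/-- real and imaginary parts of `a b' - a' b` -/
def detRe (p : Piece) : ℤ :=
  (p.ax * p.bx' - p.ay * p.by') - (p.ax' * p.bx - p.ay' * p.By)
def detIm (p : Piece) : ℤ :=
  (p.ax * p.by' + p.ay * p.bx') - (p.ax' * p.By + p.ay' * p.bx)

/-- two walls are proportional and the second is not zero -/
def Wl.par (h w : Wl) : Bool :=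
  decide (h.A * w.Bx = h.Bx * w.A ∧ h.A * w.By = h.By * w.A ∧ h.A * w.C = h.C * w.A ∧
    h.Bx * w.By = h.By * w.Bx ∧ h.Bx * w.C = h.C * w.Bx ∧ h.By * w.C = h.C * w.By ∧
    (w.A ≠ 0 ∨ w.Bx ≠ 0 ∨ w.By ≠ 0 ∨ w.C ≠ 0))

/-- the chart `p` parametrises the wall `w` -/
def onW (p : Piece) (w : Wl) : Bool :=
  (hm p).par w && decide (detRe p ≠ 0 ∨ detIm p ≠ 0)

theorem Wl.fn_zero_of_par {h w : Wl} (hp : h.par w = true) {z : ℂ} (hz : w.fn z = 0) :
    h.fn z = 0 := by
  obtain ⟨h1, h2, h3, h4, h5, h6, h7⟩ := of_decide_eq_true hp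
  have c1 : (h.A : ℝ) * w.Bx = h.Bx * w.A := by exact_mod_cast h1
  have c2 : (h.A : ℝ) * w.By = h.By * w.A := by exact_mod_cast h2
  have c3 : (h.A : ℝ) * w.C = h.C * w.A := by exact_mod_cast h3
  have c4 : (h.Bx : ℝ) * w.By = h.By * w.Bx := by exact_mod_cast h4
  have c5 : (h.Bx : ℝ) * w.C = h.C * w.Bx := by exact_mod_cast h5
  have c6 : (h.By : ℝ) * w.C = h.C * w.By := by exact_mod_cast h6
  unfold Wl.fn at hz ⊢
  rcases h7 with h7 | h7 | h7 | h7
  · have h8 : (w.A : ℝ) ≠ 0 := by exact_mod_cast h7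
    refine (mul_eq_zero.1 (?_ : (w.A : ℝ) * _ = 0)).resolve_left h8
    linear_combination (h.A : ℝ) * hz - z.re * c1 - z.im * c2 - c3
  · have h8 : (w.Bx : ℝ) ≠ 0 := by exact_mod_cast h7
    refine (mul_eq_zero.1 (?_ : (w.Bx : ℝ) * _ = 0)).resolve_left h8
    linear_combination (h.Bx : ℝ) * hz + (z.re * z.re + z.im * z.im) * c1 - z.im * c4 - c5
  · have h8 : (w.By : ℝ) ≠ 0 := by exact_mod_cast h7
    refine (mul_eq_zero.1 (?_ : (w.By : ℝ) * _ = 0)).resolve_left h8
    linear_combination (h.By : ℝ) * hz + (z.re * z.re + z.im * z.im) * c2 + z.re * c4 - c6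
  · have h8 : (w.C : ℝ) ≠ 0 := by exact_mod_cast h7
    refine (mul_eq_zero.1 (?_ : (w.C : ℝ) * _ = 0)).resolve_left h8
    linear_combination (h.C : ℝ) * hz + (z.re * z.re + z.im * z.im) * c3 + z.re * c5 + z.im * c6

/-! ### the four Gaussian integers as complex numbers -/

noncomputable def ca (p : Piece) : ℂ := (p.ax : ℂ) + (p.ay : ℂ) * Complex.I
noncomputable def ca' (p : Piece) : ℂ := (p.ax' : ℂ) + (p.ay' : ℂ) * Complex.I
noncomputable def cb (p : Piece) : ℂ := (p.bx : ℂ) + (p.By : ℂ) * Complex.I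
noncomputable def cb' (p : Piece) : ℂ := (p.bx' : ℂ) + (p.by' : ℂ) * Complex.I

theorem num_eq (p : Piece) (t : ℝ) : p.num t = ca p + ca' p * t := rfl
theorem den_eq (p : Piece) (t : ℝ) : p.den t = cb p + cb' p * t := rfl

theorem det_eq (p : Piece) : ca p * cb' p - ca' p * cb p = (detRe p : ℂ) + (detIm p : ℂ) * Complex.I := by
  simp only [ca, ca', cb, cb', detRe, detIm]
  push_cast
  linear_combination ((p.ay : ℂ) * p.by' - p.ay' * p.By) * Complex.I_sq

theorem det_ne {p : Piece} (h : detRe p ≠ 0 ∨ detIm p ≠ 0) : ca p * cb' p - ca' p * cb p ≠ 0 := by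
  rw [det_eq]
  intro h0
  have h1 := congrArg Complex.re h0
  have h2 := congrArg Complex.im h0
  simp at h1 h2
  rcases h with h | h
  · exact h h1
  · exact h h2

theorem hm_fn (p : Piece) (z : ℂ) :
    ((ca p - cb p * z) * (starRingEnd ℂ) (cb' p * z - ca' p)).im = (hm p).fn z := by
  simp only [ca, ca', cb, cb', hm, Wl.fn, Complex.mul_im, Complex.mul_re, Complex.sub_re,
    Complex.sub_im, Complex.add_re, Complex.add_im, Complex.conj_re, Complex.conj_im,
    Complex.intCast_re, Complex.intCast_im, Complex.I_re, Complex.I_im]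
  push_cast
  ring

/-- the inverse chart `t ↦ z(1/t)` -/
def inv (p : Piece) : Piece := ⟨p.ax', p.ay', p.ax, p.ay, p.bx', p.by', p.bx, p.By⟩

theorem exists_real {u v : ℂ} (h : (u * (starRingEnd ℂ) v).im = 0) (hle : ‖u‖ ≤ ‖v‖) (hv : v ≠ 0) :
    ∃ t : ℝ, -1 ≤ t ∧ t ≤ 1 ∧ u = t * v := by
  have hn : 0 < ‖v‖ := norm_pos_iff.2 hv
  have hn2 : (Complex.normSq v : ℂ) ≠ 0 := by
    rw [Complex.normSq_eq_norm_sq]
    exact_mod_cast (pow_pos hn 2).ne'
  have h1 : u * (starRingEnd ℂ) v = ((u * (starRingEnd ℂ) v).re : ℂ) := by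
    apply Complex.ext
    · simp
    · rw [h]; simp
  have h2 : u * (Complex.normSq v : ℂ) = ((u * (starRingEnd ℂ) v).re : ℂ) * v := by
    rw [← h1, ← Complex.mul_conj]
    ring
  set r : ℝ := (u * (starRingEnd ℂ) v).re with hr
  have h3 : |r| ≤ ‖v‖ ^ 2 := by
    have := Complex.abs_re_le_norm (u * (starRingEnd ℂ) v)
    rw [norm_mul, Complex.norm_conj] at this
    refine this.trans ?_
    rw [pow_two]
    exact mul_le_mul_of_nonneg_right hle (norm_nonneg _)
  have h4 := abs_le.1 h3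
  refine ⟨r / Complex.normSq v, ?_, ?_, ?_⟩
  · rw [Complex.normSq_eq_norm_sq, le_div_iff₀ (pow_pos hn 2)]
    linarith
  · rw [Complex.normSq_eq_norm_sq, div_le_iff₀ (pow_pos hn 2)]
    linarith
  · push_cast
    field_simp
    exact h2

theorem of_solve {p : Piece} {z : ℂ} {t : ℝ} (hd : ca p * cb' p - ca' p * cb p ≠ 0)
    (h : ca p - cb p * z = t * (cb' p * z - ca' p)) : p.den t ≠ 0 ∧ z = p.z t := by
  have h1 : p.den t ≠ 0 := by
    intro h0
    rw [den_eq] at h0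
    apply hd
    -- (b + b' t) (b' z - a') = a b' - a' b
    have e : (cb p + cb' p * t) * (cb' p * z - ca' p) = ca p * cb' p - ca' p * cb p := by
      linear_combination (-(cb' p)) * h
    rw [← e, h0, zero_mul]
  refine ⟨h1, ?_⟩
  rw [Piece.z, eq_div_iff h1, den_eq, num_eq]
  linear_combination -h

/-- **every point of the wall is in one of the two charts** -/
theorem chart_cover {p : Piece} {w : Wl} (h : onW p w = true) {z : ℂ} (hz : w.fn z = 0) :
    (∃ t : ℝ, -1 ≤ t ∧ t ≤ 1 ∧ p.den t ≠ 0 ∧ z = p.z t) ∨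
      (∃ t : ℝ, -1 ≤ t ∧ t ≤ 1 ∧ (inv p).den t ≠ 0 ∧ z = (inv p).z t) := by
  rw [onW, Bool.and_eq_true] at h
  have hd := det_ne (of_decide_eq_true h.2)
  have h0 : ((ca p - cb p * z) * (starRingEnd ℂ) (cb' p * z - ca' p)).im = 0 := by
    rw [hm_fn]
    exact Wl.fn_zero_of_par h.1 hz
  rcases le_total ‖ca p - cb p * z‖ ‖cb' p * z - ca' p‖ with hle | hle
  · left
    have hv : cb' p * z - ca' p ≠ 0 := by
      intro hv
      rw [hv, norm_zero, norm_le_zero_iff] at hle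
      apply hd
      linear_combination cb' p * hle + cb p * hv
    obtain ⟨t, h1, h2, h3⟩ := exists_real h0 hle hv
    exact ⟨t, h1, h2, of_solve hd h3⟩
  · right
    have hu : ca p - cb p * z ≠ 0 := by
      intro hu
      rw [hu, norm_zero, norm_le_zero_iff] at hle
      apply hd
      linear_combination cb' p * hu + cb p * hle
    have h0' : ((cb' p * z - ca' p) * (starRingEnd ℂ) (ca p - cb p * z)).im = 0 := by
      have e : (cb' p * z - ca' p) * (starRingEnd ℂ) (ca p - cb p * z)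
          = (starRingEnd ℂ) ((ca p - cb p * z) * (starRingEnd ℂ) (cb' p * z - ca' p)) := by
        rw [map_mul, Complex.conj_conj]
        ring
      rw [e, Complex.conj_im, h0, neg_zero]
    obtain ⟨t, h1, h2, h3⟩ := exists_real h0' hle hu
    refine ⟨t, h1, h2, of_solve (p := inv p) ?_ ?_⟩
    · change ca' p * cb p - ca p * cb' p ≠ 0
      intro h4
      apply hd
      linear_combination -h4
    · change ca' p - cb' p * z = t * (cb p * z - ca p)
      linear_combination -h3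

/-! ### integer parameters -/

/-- `t ∈ [0, 2M]` stands for `t / M - 1 ∈ [-1, 1]` -/
def sca (p : Piece) (M : ℕ) : Piece :=
  ⟨M * (p.ax - p.ax'), M * (p.ay - p.ay'), p.ax', p.ay', M * (p.bx - p.bx'), M * (p.By - p.by'),
    p.bx', p.by'⟩

theorem sca_num (p : Piece) {M : ℕ} (hM : 0 < M) (t : ℝ) :
    (sca p M).num t = M * p.num (t / M - 1) := by
  have h : (M : ℂ) ≠ 0 := by exact_mod_cast hM.ne'
  simp only [sca, Piece.num]
  push_cast
  field_simp
  ring

theorem sca_den (p : Piece) {M : ℕ} (hM : 0 < M) (t : ℝ) :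
    (sca p M).den t = M * p.den (t / M - 1) := by
  have h : (M : ℂ) ≠ 0 := by exact_mod_cast hM.ne'
  simp only [sca, Piece.den]
  push_cast
  field_simp
  ring

theorem sca_cover {p : Piece} {M : ℕ} (hM : 0 < M) {z : ℂ}
    (h : ∃ t : ℝ, -1 ≤ t ∧ t ≤ 1 ∧ p.den t ≠ 0 ∧ z = p.z t) :
    ∃ t : ℝ, 0 ≤ t ∧ t ≤ 2 * M ∧ (sca p M).den t ≠ 0 ∧ z = (sca p M).z t := by
  obtain ⟨t, h1, h2, h3, h4⟩ := h
  have hM' : (0 : ℝ) < M := by exact_mod_cast hM
  have hMc : (M : ℂ) ≠ 0 := by exact_mod_cast hM.ne'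
  have e : (M * (t + 1)) / M - 1 = t := by field_simp; ring
  refine ⟨M * (t + 1), by nlinarith, by nlinarith, ?_, ?_⟩
  · rw [sca_den p hM, e]
    exact mul_ne_zero hMc h3
  · rw [Piece.z, sca_den p hM, sca_num p hM, e, mul_div_mul_left _ _ hMc]
    exact h4

/-- consecutive intervals from `lo` to `hi` -/
def chain (hi : ℤ) : ℤ → List (ℤ × ℤ) → Bool
  | lo, [] => decide (hi ≤ lo)
  | lo, s :: l => decide (s.1 ≤ lo) && chain hi s.2 l

theorem chain_cover {hi : ℤ} (l : List (ℤ × ℤ)) (lo : ℤ) (hne : lo < hi) (h : chain hi lo l = true)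
    {t : ℝ} (h0 : (lo : ℝ) ≤ t) (h1 : t ≤ hi) : ∃ s ∈ l, (s.1 : ℝ) ≤ t ∧ t ≤ s.2 := by
  induction l generalizing lo with
  | nil =>
    exact absurd (of_decide_eq_true h) (not_le.2 hne)
  | cons s l ih =>
    rw [chain, Bool.and_eq_true] at h
    have h2 : (s.1 : ℝ) ≤ lo := by exact_mod_cast of_decide_eq_true h.1
    rcases le_or_gt t s.2 with h3 | h3
    · exact ⟨s, List.mem_cons_self, h2.trans h0, h3⟩
    · have h4 : s.2 < hi := by
        have : (s.2 : ℝ) < hi := lt_of_lt_of_le h3 h1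
        exact_mod_cast this
      obtain ⟨s', h5, h6⟩ := ih s.2 h4 h.2 h3.le
      exact ⟨s', List.mem_cons_of_mem _ h5, h6⟩

/-- the cover of one wall: a chart, a scale and two chains from `0` to `2 M` -/
structure WC where
  p : Piece
  M : ℕ
  s0 : List (ℤ × ℤ)
  s1 : List (ℤ × ℤ)

/-- the check -/
def WC.ok (c : WC) (w : Wl) : Bool :=
  onW c.p w && decide (0 < c.M) && chain (2 * c.M) 0 c.s0 && chain (2 * c.M) 0 c.s1

/-- the pieces: chart and parameter interval -/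
def WC.pieces (c : WC) : List (Piece × ℤ × ℤ) :=
  c.s0.map (fun s => (sca c.p c.M, s)) ++ c.s1.map (fun s => (sca (inv c.p) c.M, s))

/-- the point is on the piece -/
def OnPc (q : Piece × ℤ × ℤ) (z : ℂ) : Prop :=
  ∃ t : ℝ, (q.2.1 : ℝ) ≤ t ∧ t ≤ q.2.2 ∧ q.1.den t ≠ 0 ∧ z = q.1.z t

/-- **(D3)** -/
theorem WC.cover {c : WC} {w : Wl} (h : c.ok w = true) {z : ℂ} (hz : w.fn z = 0) :
    ∃ q ∈ c.pieces, OnPc q z := by
  simp only [WC.ok, Bool.and_eq_true] at h
  obtain ⟨⟨⟨h1, h2⟩, h3⟩, h4⟩ := h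
  have hM := of_decide_eq_true h2
  have hlt : (0 : ℤ) < 2 * (c.M : ℤ) := by omega
  rcases chart_cover h1 hz with h5 | h5
  · obtain ⟨t, a, b, d, e⟩ := sca_cover hM h5
    obtain ⟨s, hs, hs'⟩ := chain_cover c.s0 0 hlt h3 (t := t) (by simpa using a)
      (by push_cast; exact b)
    exact ⟨(sca c.p c.M, s), List.mem_append_left _ (List.mem_map.2 ⟨s, hs, rfl⟩), t, hs'.1, hs'.2,
      d, e⟩
  · obtain ⟨t, a, b, d, e⟩ := sca_cover hM h5
    obtain ⟨s, hs, hs'⟩ := chain_cover c.s1 0 hlt h4 (t := t) (by simpa using a)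
      (by push_cast; exact b)
    exact ⟨(sca (inv c.p) c.M, s), List.mem_append_right _ (List.mem_map.2 ⟨s, hs, rfl⟩), t, hs'.1,
      hs'.2, d, e⟩

/-- the real line -/
example : onW ⟨0, 0, 1, 0, 1, 0, 0, 0⟩ ⟨0, 0, 1, 0⟩ = true := by decide
/-- the circle `|z - 1| = 2` : `z = 1 + 2 (1 + i t)/(1 - i t) = (3 + i t)/(1 - i t)` -/
example : onW ⟨3, 0, 0, 1, 1, 0, 0, -1⟩ ⟨1, -2, 0, -3⟩ = true := by decide

end Vale.Agent.P030.H69
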