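import Vale.Agent.P030.H69.WrFormal
import Vale.Agent.P030.H181.KNz
import Vale.Agent.P030.H787.PGVec

/-!
# P030, row (R-d): the Wronskian of `A0`, `A3`

`V 6 u 6 * V 7 u 7 - V 6 u 7 * V 7 u 6 = -(π/2) (1-u)/(1+u)` on `Up` (`wr_up`) and on `OmI q` for the
continued vectors (`wr_OmI`); the same for the log-free frames of the four cusp discs.
-/

open PowerSeries

namespace Vale.Agent.P030.H69

open Vale.Agent.P030.T Vale.Agent.P030.AR Vale.Agent.P030.H462 Vale.Agent.P030.H787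
open Vale.Agent.P030.H181 (isOpen_Up convex_Up eqOn_of_open eqOn_OmI I_mem_Up)

/-! ### evaluation -/

theorem ev_mul' {f g : ℚ⟦X⟧} (hf : PR f) (hg : PR g) {z : ℂ} (hz : ‖z‖ < 1) :
    evq (f * g) z = evq f z * evq g z := ev_mul hf hg hz

theorem ev_add' {f g : ℚ⟦X⟧} (hf : PR f) (hg : PR g) {z : ℂ} (hz : ‖z‖ < 1) :
    evq (f + g) z = evq f z + evq g z := ev_add hf hg hz

theorem ev_sub' {f g : ℚ⟦X⟧} (hf : PR f) (hg : PR g) {z : ℂ} (hz : ‖z‖ < 1) :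
    evq (f - g) z = evq f z - evq g z := ev_sub hf hg hz

theorem ev_neg' (f : ℚ⟦X⟧) (z : ℂ) : evq (-f) z = -evq f z := ev_neg f z

theorem ev_zero' (z : ℂ) : evq 0 z = 0 := ev_zero z

theorem ev_one' (z : ℂ) : evq 1 z = 1 := ev_one z

theorem ev_X' (z : ℂ) : evq X z = z := ev_X z

theorem ev_C' (q : ℚ) (z : ℂ) : evq (C q) z = (q : ℂ) := by
  have := ev_C (φ := Rat.castHom ℂ) q z
  exact this

theorem pr_1mX : PR (1 - X) := PG.sub PG.one PG.varX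
theorem pr_1pX : PR (1 + X) := PG.add PG.one PG.varX
theorem pr_1mX2 : PR (1 - X ^ 2) := PG.sub PG.one (PG.pow PG.varX 2)

theorem ev_1mX {z : ℂ} (hz : ‖z‖ < 1) : evq (1 - X) z = 1 - z := by
  rw [ev_sub' PG.one PG.varX hz, ev_one', ev_X']

theorem ev_1pX {z : ℂ} (hz : ‖z‖ < 1) : evq (1 + X) z = 1 + z := by
  rw [ev_add' PG.one PG.varX hz, ev_one', ev_X']

theorem ev_1mX2 {z : ℂ} (hz : ‖z‖ < 1) : evq (1 - X ^ 2) z = 1 - z ^ 2 := by
  rw [ev_sub' PG.one (PG.pow PG.varX 2) hz, ev_one', pow_two, ev_mul' PG.varX PG.varX hz, ev_X',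
    pow_two]

/-- the Wronskian as a function on the unit disc -/
theorem kwC {z : ℂ} (hz : ‖z‖ < 1) : (1 - z ^ 2) * (evq serK z * (evq (th serM) z + evq serK z)
    - evq serM z * evq (th serK) z) = 1 := by
  have h := congrArg (fun f => evq f z) kw
  have pK := pg_serK
  have pM := pg_serM
  simp only [ev_one'] at h
  rw [ev_mul' pr_1mX2 ((PG.mul pK (PG.add (pr_th pM) pK)).sub (PG.mul pM (pr_th pK))) hz,
    ev_1mX2 hz, ev_sub' (PG.mul pK (PG.add (pr_th pM) pK)) (PG.mul pM (pr_th pK)) hz,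
    ev_mul' pK (PG.add (pr_th pM) pK) hz, ev_add' (pr_th pM) pK hz, ev_mul' pM (pr_th pK) hz] at h
  exact h

theorem tupC_eq {g : Gp} (hg : g ≠ .z1) (t : ℂ) (j : Fin 8) : tupC g t j = evq (tup0 g j) t := by
  have h : tup1 g j = 0 := by
    cases g <;> first | exact absurd rfl hg | rfl
  rw [tupC, h, ev_zero', mul_zero, add_zero]

/-! ### the four cusp discs -/

/-- `c0` -/
theorem detC0 {t : ℂ} (ht : ‖t‖ < 1) :
    (1 + t) * (tupC .z8 t 6 * evt zM0 t 7 - tupC .z8 t 7 * evt zM0 t 6) = 1 - t := by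
  have h := congrArg (fun f => evq f t) det0
  have p1 := pg_tup0 .z8 6
  have p2 := pg_tup0 .z8 7
  have q1 := pg_zM0 6
  have q2 := pg_zM0 7
  rw [ev_mul' pr_1pX ((PG.mul p1 q2).sub (PG.mul p2 q1)) ht, ev_1pX ht, ev_1mX ht,
    ev_sub' (PG.mul p1 q2) (PG.mul p2 q1) ht, ev_mul' p1 q2 ht, ev_mul' p2 q1 ht] at h
  rw [tupC_eq (by decide), tupC_eq (by decide)]
  exact h

/-- `c1` -/
theorem detC1 {t : ℂ} (ht : ‖t‖ < 1) :
    tupC .w8 t 6 * (t * evt wM0 t 7 + (1 - t ^ 2) / 2 * evq serK t)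
      - tupC .w8 t 7 * (t * evt wM0 t 6) = 1 / 2 := by
  have h := congrArg (fun f => evq f t) det1
  have p1 := pg_tup0 .w8 6
  have p2 := pg_tup0 .w8 7
  have q1 := pg_wM0 6
  have q2 := pg_wM0 7
  have pK := pg_serK
  have pc : PR (C (1 / 2 : ℚ)) := PG.const _
  have r1 : PR (C (1 / 2) * ((1 - X ^ 2) * serK)) := PG.mul pc (PG.mul pr_1mX2 pK)
  have r2 : PR (X * wM0 7 + C (1 / 2) * ((1 - X ^ 2) * serK)) := PG.add (PG.mul PG.varX q2) r1
  have r3 : PR (X * wM0 6) := PG.mul PG.varX q1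
  rw [ev_sub' (PG.mul p1 r2) (PG.mul p2 r3) ht, ev_mul' p1 r2 ht, ev_mul' p2 r3 ht,
    ev_add' (PG.mul PG.varX q2) r1 ht, ev_mul' PG.varX q2 ht, ev_mul' PG.varX q1 ht,
    ev_mul' pc (PG.mul pr_1mX2 pK) ht, ev_mul' pr_1mX2 pK ht, ev_1mX2 ht, ev_X', ev_C'] at h
  rw [tupC_eq (by decide), tupC_eq (by decide)]
  simp only [evt]
  push_cast at h
  linear_combination h

/-- `c2` -/
theorem detC2 {t : ℂ} (ht : ‖t‖ < 1) :
    (1 + t) * (tupC .v8 t 6 * evt vM0 t 7 - tupC .v8 t 7 * evt vM0 t 6) = -(1 - t) := by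
  have h := congrArg (fun f => evq f t) det2
  have p1 := pg_tup0 .v8 6
  have p2 := pg_tup0 .v8 7
  have q1 := pg_vM0 6
  have q2 := pg_vM0 7
  rw [ev_mul' pr_1pX ((PG.mul p1 q2).sub (PG.mul p2 q1)) ht, ev_1pX ht, ev_neg', ev_1mX ht,
    ev_sub' (PG.mul p1 q2) (PG.mul p2 q1) ht, ev_mul' p1 q2 ht, ev_mul' p2 q1 ht] at h
  rw [tupC_eq (by decide), tupC_eq (by decide)]
  exact h

/-- `c3` -/
theorem detC3 {t : ℂ} (ht : ‖t‖ < 1) :
    k3v t 6 * evt xM0 t 7 - k3v t 7 * evt xM0 t 6 = t / 2 := by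
  have h := congrArg (fun f => evq f t) det3
  have p1 := pg_tup0 .xl 6
  have p2 := pg_tup0 .xl 7
  have q1 := pg_xM0 6
  have q2 := pg_xM0 7
  have pc : PR (C (1 / 2 : ℚ)) := PG.const _
  rw [ev_sub' (PG.mul p1 q2) (PG.mul p2 q1) ht, ev_mul' p1 q2 ht, ev_mul' p2 q1 ht,
    ev_mul' pc PG.varX ht, ev_X', ev_C'] at h
  have e6 : k3v t 6 = evq (tup0 .xl 6) t := by
    rw [← tupC_eq (by decide)]
    simp [k3v, gv, hv]
  have e7 : k3v t 7 = evq (tup0 .xl 7) t := by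
    rw [← tupC_eq (by decide)]
    simp [k3v, gv, hv]
  rw [e6, e7]
  simp only [evt]
  push_cast at h
  linear_combination h

/-! ### the global Wronskian -/

variable {V W : Fin 8 → ℂ → Fin 8 → ℂ}

theorem one_add_ne_of_Up {u : ℂ} (hu : u ∈ Up) : 1 + u ≠ 0 := by
  intro h
  have h1 : (1 + u).im = 0 := by rw [h]; simp
  have h2 : 0 < u.im := hu
  simp at h1
  linarith

/-- **(R-d)** -/
theorem wr_up (hV : IsV V) : ∀ u ∈ Up, V 6 u 6 * V 7 u 7 - V 6 u 7 * V 7 u 6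
    = -(pc / 2) * ((1 - u) / (1 + u)) := by
  refine eqOn_of_open isOpen_Up convex_Up.isPreconnected
    (((hV.hol 6 6).mul (hV.hol 7 7)).sub ((hV.hol 6 7).mul (hV.hol 7 6)))
    (DifferentiableOn.const_mul (DifferentiableOn.div (by fun_prop) (by fun_prop)
      fun u hu => one_add_ne_of_Up hu) _)
    (isOpen_lt continuous_norm continuous_const) (z0 := Complex.I / 2)
    (show ‖Complex.I / 2‖ < (1 : ℝ) by simp; norm_num) (by simp [Up]) ?_
  intro u hu hb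
  replace hb : ‖u‖ < 1 := hb
  have h := detC0 hb
  have h1 := one_add_ne_of_Up hu
  rw [hV.at0 u hu hb 6, hV.at0 u hu hb 7]
  have e6 : ∀ j, gl0 (Complex.log u) u 6 j = (pc / 2) * tupC .z8 u j := fun j => by
    simp [gl0]
  have e7 : ∀ j, gl0 (Complex.log u) u 7 j
      = (2 * l2 - Complex.log u) * tupC .z8 u j - evt zM0 u j := fun j => by
    simp [gl0]
  rw [e6, e6, e7, e7]
  have h2 : (1 - u) / (1 + u) = tupC .z8 u 6 * evt zM0 u 7 - tupC .z8 u 7 * evt zM0 u 6 := by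
    rw [div_eq_iff h1, ← h]; ring
  rw [h2]
  ring

theorem one_add_ne_of_OmI {q : Fin 4} {u : ℂ} (hu : u ∈ OmI q) : 1 + u ≠ 0 := by
  intro h
  have h1 : u = -1 := by linear_combination h
  subst h1
  have h2 := hu (by simp)
  fin_cases q <;> simp [Iv] at h2 <;> linarith

theorem one_sub_ne_of_OmI {q : Fin 4} {u : ℂ} (hu : u ∈ OmI q) : 1 - u ≠ 0 := by
  intro h
  have h1 : u = 1 := by linear_combination -h
  subst h1
  have h2 := hu (by simp)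
  fin_cases q <;> simp [Iv] at h2 <;> linarith

/-- **(R-d)** for the continued vectors -/
theorem wr_OmI (hV : IsV V) {q : Fin 4} (hW : IsW V q W) : ∀ u ∈ OmI q,
    W 6 u 6 * W 7 u 7 - W 6 u 7 * W 7 u 6 = -(pc / 2) * ((1 - u) / (1 + u)) := by
  refine eqOn_OmI q (((hW.hol 6 6).mul (hW.hol 7 7)).sub ((hW.hol 6 7).mul (hW.hol 7 6)))
    (DifferentiableOn.const_mul (DifferentiableOn.div (by fun_prop) (by fun_prop)
      fun u hu => one_add_ne_of_OmI hu) _) ?_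
  intro u hu
  rw [hW.up 6 u hu, hW.up 7 u hu]
  exact wr_up hV u hu

theorem pc_ne' : pc ≠ 0 := by
  rw [pc]
  exact_mod_cast Real.pi_ne_zero

theorem wr_OmI_ne (hV : IsV V) {q : Fin 4} (hW : IsW V q W) {u : ℂ} (hu : u ∈ OmI q) :
    W 6 u 6 * W 7 u 7 - W 6 u 7 * W 7 u 6 ≠ 0 := by
  rw [wr_OmI hV hW u hu]
  exact mul_ne_zero (neg_ne_zero.2 (div_ne_zero pc_ne' two_ne_zero))
    (div_ne_zero (one_sub_ne_of_OmI hu) (one_add_ne_of_OmI hu))

theorem wr_up_ne (hV : IsV V) {u : ℂ} (hu : u ∈ Up) :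
    V 6 u 6 * V 7 u 7 - V 6 u 7 * V 7 u 6 ≠ 0 := by
  rw [wr_up hV u hu]
  refine mul_ne_zero (neg_ne_zero.2 (div_ne_zero pc_ne' two_ne_zero))
    (div_ne_zero ?_ (one_add_ne_of_Up hu))
  intro h
  have h1 : (1 - u).im = 0 := by rw [h]; simp
  have h2 : 0 < u.im := hu
  simp at h1
  linarith

/-- general form: for `k = α A0 + β A3`, `k' = γ A0 + δ A3` the Wronskian is `(αδ - βγ)` times the
basic one -/
theorem wr_comb (hV : IsV V) (α β γ δ : ℂ) {u : ℂ} (hu : u ∈ Up) :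
    (α * V 6 u 6 + β * V 7 u 6) * (γ * V 6 u 7 + δ * V 7 u 7)
      - (α * V 6 u 7 + β * V 7 u 7) * (γ * V 6 u 6 + δ * V 7 u 6)
      = (α * δ - β * γ) * (-(pc / 2) * ((1 - u) / (1 + u))) := by
  rw [← wr_up hV u hu]
  ring

theorem wr_comb_OmI (hV : IsV V) {q : Fin 4} (hW : IsW V q W) (α β γ δ : ℂ) {u : ℂ}
    (hu : u ∈ OmI q) :
    (α * W 6 u 6 + β * W 7 u 6) * (γ * W 6 u 7 + δ * W 7 u 7)
      - (α * W 6 u 7 + β * W 7 u 7) * (γ * W 6 u 6 + δ * W 7 u 6)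
      = (α * δ - β * γ) * (-(pc / 2) * ((1 - u) / (1 + u))) := by
  rw [← wr_OmI hV hW u hu]
  ring

end Vale.Agent.P030.H69
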