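import Vale.Agent.P030.AR.Vec
import Vale.Agent.P030.H605.Ser

/-!
# P030: the Wronskian of the two solutions, as an identity of power series

`kw : (1 - X²) (K (θM + K) - M θK) = 1`, and its four forms for the log-free `K`-frames of the cusps
(slots 6 and 7): `det0 .. det3`.
-/

open PowerSeries

namespace Vale.Agent.P030.H69

open Vale.Agent.P030.T Vale.Agent.P030.AR

theorem th_mul (f g : ℚ⟦X⟧) : th (f * g) = f * th g + g * th f := by
  rw [H605.th_eq, H605.th_eq, H605.th_eq, Derivation.leibniz]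
  simp only [smul_eq_mul]
  ring

theorem th_add (f g : ℚ⟦X⟧) : th (f + g) = th f + th g := by
  ext n; simp only [map_add, H605.coeff_th]; ring

theorem th_sub (f g : ℚ⟦X⟧) : th (f - g) = th f - th g := by
  ext n; simp only [map_sub, H605.coeff_th]; ring

theorem th_one_sub : th (1 - X ^ 2 : ℚ⟦X⟧) = -(2 * X ^ 2) := by
  have h : th (X : ℚ⟦X⟧) = X := by
    rw [H605.th_eq]
    simp
  have h1 : th (1 : ℚ⟦X⟧) = 0 := by
    rw [H605.th_eq]
    simp
  rw [th_sub, h1, pow_two, th_mul, h]
  ring

theorem eq_one_of_th {f : ℚ⟦X⟧} (h : th f = 0) (h0 : coeff 0 f = 1) : f = 1 := by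
  ext n
  rcases n with _ | n
  · rw [h0]; simp
  · have h1 : coeff (n + 1) (th f) = 0 := by rw [h, map_zero]
    rw [H605.coeff_th] at h1
    have h2 : ((n + 1 : ℕ) : ℚ) ≠ 0 := by positivity
    rw [(mul_eq_zero.1 h1).resolve_left h2]
    simp [coeff_one]

/-- **the Wronskian** -/
theorem kw : (1 - X ^ 2) * (serK * (th serM + serK) - serM * th serK) = 1 := by
  have h2 : (C 2 : ℚ⟦X⟧) = 2 := map_ofNat C 2
  have hK := H605.K_ode
  have hM := H605.M_ode
  rw [h2] at hK hM
  refine eq_one_of_th ?_ ?_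
  · rw [th_mul, th_one_sub, th_sub, th_mul, th_mul, th_add]
    linear_combination serK * hM - serM * hK
  · have hm : constantCoeff serM = 0 := by
      rw [← coeff_zero_eq_constantCoeff_apply, serM, coeff_mk]
      simp [cMs]
    have hk : constantCoeff serK = 1 := by
      rw [← coeff_zero_eq_constantCoeff_apply, H605.serK_zero]
    have ht : constantCoeff (th serM) = 0 := by
      rw [← coeff_zero_eq_constantCoeff_apply, H605.coeff_th]
      simp
    rw [coeff_zero_eq_constantCoeff_apply]
    simp [hm, hk, ht]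

theorem dd_X_mul (f : ℚ⟦X⟧) : dd (X * f) = f + th f := by
  rw [H605.dd_eq, H605.th_eq, Derivation.leibniz]
  simp only [smul_eq_mul, derivative_X]
  ring

/-- `X (K tw M - M tw K) = (1 - X²)/2 (K θM - M θK)` -/
theorem tw_wr : X * (serK * tw serM - serM * tw serK)
    = C (1 / 2) * ((1 - X ^ 2) * (serK * th serM - serM * th serK)) := by
  have h : ∀ f : ℚ⟦X⟧, X * tw f = C (1 / 2) * ((1 - X ^ 2) * th f - X * (1 + X) * f) := by
    intro f
    have h1 : dd ((1 - X) * f) = (1 - X) * dd f - f := by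
      rw [H605.dd_eq, H605.dd_eq, Derivation.leibniz]
      simp only [smul_eq_mul, map_sub, derivative_X]
      simp
      ring
    have h3 : th f = X * dd f := by rw [H605.th_eq, H605.dd_eq]
    rw [tw, sc, h1, h3]
    ring
  have a := h serM
  have b := h serK
  linear_combination serK * a - serM * b

/-! ### the four log-free frames in the slots 6, 7 -/

/-- `c0` -/
theorem det0 : (1 + X) * (tup0 .z8 6 * zM0 7 - tup0 .z8 7 * zM0 6) = 1 - X := by
  have h := kw
  change (1 + X) * (((1 - X) * serK) * ((1 - X) * (th serM + serK))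
    - ((1 - X) * th serK) * ((1 - X) * serM)) = 1 - X
  linear_combination (1 - X) * h

/-- `c1` (`wM` has a pole) -/
theorem det1 : tup0 .w8 6 * (X * wM0 7 + C (1 / 2) * ((1 - X ^ 2) * serK))
    - tup0 .w8 7 * (X * wM0 6) = C (1 / 2) := by
  have h := kw
  have h2 := tw_wr
  change serK * (X * tw serM + C (1 / 2) * ((1 - X ^ 2) * serK)) - tw serK * (X * serM) = C (1 / 2)
  linear_combination h2 + C (1 / 2) * h

/-- `c2` -/
theorem det2 : (1 + X) * (tup0 .v8 6 * vM0 7 - tup0 .v8 7 * vM0 6) = -(1 - X) := by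
  have h := kw
  have a := dd_X_mul serM
  have b := dd_X_mul serK
  change (1 + X) * ((-((1 - X) * serK)) * ((1 - X) * (dd (X * serM) + serK))
    - ((1 - X) * dd (X * serK)) * (-((1 - X) * serM))) = -(1 - X)
  rw [a, b]
  linear_combination -(1 - X) * h

/-- `c3` -/
theorem det3 : tup0 .xl 6 * xM0 7 - tup0 .xl 7 * xM0 6 = C (1 / 2) * X := by
  have h := kw
  have h2 := tw_wr
  change (-(X * serK)) * (-(X * tw serM + sc (1 / 2) ((1 - X ^ 2) * serK)))
    - (-(X * tw serK)) * (-(X * serM)) = C (1 / 2) * X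
  rw [sc]
  linear_combination X * h2 + C (1 / 2) * X * h

end Vale.Agent.P030.H69
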